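import Vale.Agent.P032.H728.Sym

/-!
# P032: pairs of columns without a swap and without a six conveyor

`mt p q` : the letters `p` and `q` have a colour in common.  `NsC g g'` : no two neighbouring slots
swap a colour (in both directions at one time), and not all six slots hand a colour on to the next
(previous) slot.
-/

namespace Vale.Agent.P032.H623

open Vale.Agent.P032.H429 Vale.Agent.P032.H158 Vale.Agent.P032.H728

/-- the two letters have a colour in common -/
def mt (p q : Fin 6 × Fin 6) : Prop := p.1 = q.1 ∨ p.1 = q.2 ∨ p.2 = q.1 ∨ p.2 = q.2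

instance (p q : Fin 6 × Fin 6) : Decidable (mt p q) := by unfold mt; infer_instance

/-- **no swap and no six conveyor** (columns before and after) -/
def NsC (g g' : Cl) : Prop :=
  (∀ j, ¬ (mt (g j) (g' (j + 1)) ∧ mt (g' j) (g (j + 1)))) ∧
    ¬ (∀ j, mt (g j) (g' (j + 1))) ∧ ¬ ∀ j, mt (g' j) (g (j + 1))

instance (g g' : Cl) : Decidable (NsC g g') := by unfold NsC; infer_instance

/-- the relation `NsC` for states -/
def Ens (s s' : St) : Prop := NsC s.1 s'.1

theorem mt_prm (σ : Equiv.Perm (Fin 6)) (p q : Fin 6 × Fin 6) :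
    mt (σ p.1, σ p.2) (σ q.1, σ q.2) ↔ mt p q := by
  unfold mt
  simp only [EmbeddingLike.apply_eq_iff_eq]

theorem ens_prm : PrmInv Ens := by
  intro σ s s' h
  obtain ⟨h1, h2, h3⟩ := h
  refine ⟨fun j hj => h1 j ?_, fun hj => h2 fun j => ?_, fun hj => h3 fun j => ?_⟩
  · exact ⟨(mt_prm σ _ _).1 hj.1, (mt_prm σ _ _).1 hj.2⟩
  · exact (mt_prm σ _ _).1 (hj j)
  · exact (mt_prm σ _ _).1 (hj j)

end Vale.Agent.P032.H623
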