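import Vale.Agent.P032.H623.NsC

/-!
# P032: the relation `NsC` in the form with disjoint letters
-/

namespace Vale.Agent.P032.H623

open Vale.Agent.P032.H429 Vale.Agent.P032.H158 Vale.Agent.P032.H728

theorem not_mt (p q : Fin 6 × Fin 6) : ¬ mt p q ↔ p.1 ≠ q.1 ∧ p.1 ≠ q.2 ∧ p.2 ≠ q.1 ∧ p.2 ≠ q.2 := by
  unfold mt
  tauto

/-- `NsC` with disjoint letters, written out -/
theorem nsC_iff (g g' : Cl) : NsC g g' ↔
    (∀ j, ((g j).1 ≠ (g' (j + 1)).1 ∧ (g j).1 ≠ (g' (j + 1)).2 ∧ (g j).2 ≠ (g' (j + 1)).1 ∧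
        (g j).2 ≠ (g' (j + 1)).2) ∨
      ((g' j).1 ≠ (g (j + 1)).1 ∧ (g' j).1 ≠ (g (j + 1)).2 ∧ (g' j).2 ≠ (g (j + 1)).1 ∧
        (g' j).2 ≠ (g (j + 1)).2)) ∧
    (∃ j, (g j).1 ≠ (g' (j + 1)).1 ∧ (g j).1 ≠ (g' (j + 1)).2 ∧ (g j).2 ≠ (g' (j + 1)).1 ∧
        (g j).2 ≠ (g' (j + 1)).2) ∧
    ∃ j, (g' j).1 ≠ (g (j + 1)).1 ∧ (g' j).1 ≠ (g (j + 1)).2 ∧ (g' j).2 ≠ (g (j + 1)).1 ∧
        (g' j).2 ≠ (g (j + 1)).2 := by
  unfold NsC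
  simp only [not_and_or, not_forall, not_mt]

/-- `NsC` is invariant under the turn -/
theorem ens_turn : TurnInv Ens := by
  intro s s' h
  obtain ⟨h1, h2, h3⟩ := h
  have e : ∀ j : Fin 6, j - 1 + 1 = j := by decide
  refine ⟨fun j hj => h1 (j + 1) hj, fun hj => h2 fun j => ?_, fun hj => h3 fun j => ?_⟩
  · have h4 := hj (j - 1)
    have h5 : mt (s.1 (j - 1 + 1)) (s'.1 (j - 1 + 1 + 1)) := h4
    rw [e] at h5
    exact h5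
  · have h4 := hj (j - 1)
    have h5 : mt (s'.1 (j - 1 + 1)) (s.1 (j - 1 + 1 + 1)) := h4
    rw [e] at h5
    exact h5

end Vale.Agent.P032.H623
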