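import Vale.Agent.P032.H623.BrOf
import Vale.Agent.P032.H314.EvT
import Vale.Agent.P032.H184.Hold

/-!
# P032: the killed pairs do not depend on the names and on the turn
-/

open Set

noncomputable section

namespace Vale.Agent.P032.H623

open Vale.Agent.P032.Six Vale.Agent.P032.H429 Vale.Agent.P032.H158 Vale.Agent.P032.H728

/-- `Kld` of the renamed and turned pair gives `Kld` of the pair -/
theorem kld_back (σ : Equiv.Perm (Fin 6)) (k : ℕ) (s s' : St)
    (h : H184.Kld (prm σ (H429.shift^[k] s)).1 (prm σ (H429.shift^[k] s')).1) :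
    H184.Kld s.1 s'.1 := by
  obtain ⟨τ, r, p, q, g, hx, e1, e2⟩ := h
  exact ⟨σ⁻¹ * τ, r - Fin.ofNat 6 k, p, q, g, hx, col_back e1, col_back e2⟩

/-- `KldE` of the renamed and turned pair gives `KldE` of the pair -/
theorem kldE_back {evs : List H437.Ev} (σ : Equiv.Perm (Fin 6)) (k : ℕ) (s s' : St)
    (h : H314.KldE evs (prm σ (H429.shift^[k] s)).1 (prm σ (H429.shift^[k] s')).1) :
    H314.KldE evs s.1 s'.1 := by
  obtain ⟨k', p, q, M, hv, τ, r, e1, e2⟩ := h
  exact ⟨k', p, q, M, hv, σ⁻¹ * τ, r - Fin.ofNat 6 k, col_back e1, col_back e2⟩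

/-- **The bridge from its two inputs**: the search over the 57 columns (`hS`) and the table of the
witnesses (`hW`). -/
theorem bridge_of' {lst : ℕ → List ℕ} {evs : List H437.Ev}
    (hS : ∀ c ∈ L57, ∀ s s', StepC All Et s s' → IsCol s.1 c → ¬ NsC s.1 s'.1 →
      ∃ q ∈ lst c, IsCol s'.1 q)
    (hW : ∀ c ∈ L57, ∀ q ∈ lst c, ∀ g g' : Cl, IsCol g c → IsCol g' q →
      H184.Kld g g' ∨ H314.KldE evs g g')
    {E : St → St → Prop} {s s' : St} (h : StepC All E s s') (h1 : ¬ H184.Kld s.1 s'.1)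
    (h2 : ¬ H314.KldE evs s.1 s'.1) : NsC s.1 s'.1 := by
  refine bridge_of (K := fun a b => H184.Kld a b ∨ H314.KldE evs a b) ?_ hS hW h ?_
  · intro σ k s s' _ hk
    rcases hk with h3 | h3
    · exact Or.inl (kld_back σ k s s' h3)
    · exact Or.inr (kldE_back σ k s s' h3)
  · rintro (h3 | h3)
    · exact h1 h3
    · exact h2 h3

end Vale.Agent.P032.H623
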