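import Vale.Agent.P032.H623.ColsD

/-!
# P032: every column of a centre with windows is one of 57 columns

`cols57` : a valid state with covered rays has, after a renaming of the colours and a turn, one of
the columns of `L57`.
-/

namespace Vale.Agent.P032.H623

open Vale.Agent.P032.H429 Vale.Agent.P032.H158 Vale.Agent.P032.H728
open Vale.Agent.P032.H532 (force force_eq)

/-! ### the letters and the windows of a state -/

/-- the letters as numbers -/
def ltr (g : Cl) (p : ℕ) : ℕ := (lseq g p).val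

/-- the code of a window -/
def cw (w : ZMod 6 × ℕ) : ℕ := 4 * w.1.val + w.2

/-- the reversed list of the first letters -/
def pre (f : ℕ → ℕ) : ℕ → List ℕ
  | 0 => []
  | p + 1 => f p :: pre f p

theorem inn_msk : ∀ (j : Fin 6) (a : ZMod 6) (n : Fin 4), inn (a, n.val) (j.val : ZMod 6) →
    (mskL.getD (2 * j.val) 0).testBit (4 * a.val + n.val) = true := by decide

theorem out_msk : ∀ (j : Fin 6) (a : ZMod 6) (n : Fin 4), out (a, n.val) (j.val : ZMod 6) →
    (mskL.getD (2 * j.val + 1) 0).testBit (4 * a.val + n.val) = true := by decide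

theorem cov_msk : ∀ (k : ZMod 6) (a : ZMod 6) (n : Fin 4), (k - 1 - a).val < n.val →
    (covL.getD k.val 0).testBit (4 * a.val + n.val) = true := by decide

theorem cv_msk : ∀ (k : ZMod 6) (a : ZMod 6) (n : Fin 4), (k - 1 - a).val < n.val →
    (cvL.getD (4 * a.val + n.val) 0).testBit k.val = true := by decide

theorem cv_lt : ∀ b : Fin 24, cvL.getD b.val 0 < 2 ^ 6 := by decide

theorem vb {a b : Fin 6} (h : a ≠ b) : Nat.beq a.val b.val = false := by
  rw [← Bool.not_eq_true]
  exact fun h' => h (Fin.ext (Nat.eq_of_beq_eq_true h'))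

theorem nb (b : Fin 6) : Nat.beq 9 b.val = false := by
  revert b; decide

theorem sixty {s : St} (h : OkSt s) (j k : Fin 6) (hk : j + 1 = k) : (s.1 j).1 ≠ (s.1 j).2 ∧
    (s.1 j).1 ≠ (s.1 k).1 ∧ (s.1 j).1 ≠ (s.1 k).2 ∧ (s.1 j).2 ≠ (s.1 k).1 ∧
    (s.1 j).2 ≠ (s.1 k).2 := by
  subst hk
  obtain ⟨a, -, -, b, c, d, e⟩ := h.2 j
  exact ⟨a, b, c, d, e⟩

/-- no letter of a valid state is bad -/
theorem bad_false {s : St} (h : OkSt s) : ∀ p < 12,
    bad p (pre (ltr s.1) p) (ltr s.1 p) = false := by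
  obtain ⟨a0, b0, c0, d0, e0⟩ := sixty h 0 1 rfl
  obtain ⟨a1, b1, c1, d1, e1⟩ := sixty h 1 2 rfl
  obtain ⟨a2, b2, c2, d2, e2⟩ := sixty h 2 3 rfl
  obtain ⟨a3, b3, c3, d3, e3⟩ := sixty h 3 4 rfl
  obtain ⟨a4, b4, c4, d4, e4⟩ := sixty h 4 5 rfl
  obtain ⟨a5, b5, c5, d5, e5⟩ := sixty h 5 0 rfl
  have f0 : ltr s.1 0 = (s.1 0).1.val := rfl
  have f1 : ltr s.1 1 = (s.1 0).2.val := rfl
  have f2 : ltr s.1 2 = (s.1 1).1.val := rfl
  have f3 : ltr s.1 3 = (s.1 1).2.val := rfl
  have f4 : ltr s.1 4 = (s.1 2).1.val := rfl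
  have f5 : ltr s.1 5 = (s.1 2).2.val := rfl
  have f6 : ltr s.1 6 = (s.1 3).1.val := rfl
  have f7 : ltr s.1 7 = (s.1 3).2.val := rfl
  have f8 : ltr s.1 8 = (s.1 4).1.val := rfl
  have f9 : ltr s.1 9 = (s.1 4).2.val := rfl
  have f10 : ltr s.1 10 = (s.1 5).1.val := rfl
  have f11 : ltr s.1 11 = (s.1 5).2.val := rfl
  intro p hp
  interval_cases p
  · simp [bad, pre, f0, nb]
  · simp [bad, pre, f0, f1, nb, vb a0]
  · simp [bad, pre, f0, f1, f2, nb, vb b0, vb d0]
  · simp [bad, pre, f0, f1, f2, f3, nb, vb a1, vb c0, vb e0]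
  · simp [bad, pre, f0, f1, f2, f3, f4, nb, vb b1, vb d1]
  · simp [bad, pre, f0, f1, f2, f3, f4, f5, nb, vb a2, vb c1, vb e1]
  · simp [bad, pre, f4, f5, f6, nb, vb b2, vb d2]
  · simp [bad, pre, f4, f5, f6, f7, nb, vb a3, vb c2, vb e2]
  · simp [bad, pre, f6, f7, f8, nb, vb b3, vb d3]
  · simp [bad, pre, f6, f7, f8, f9, nb, vb a4, vb c3, vb e3]
  · simp [bad, pre, f0, f1, f8, f9, f10, nb, vb b4, vb d4, vb b5.symm, vb c5.symm]
  · simp [bad, pre, f0, f1, f8, f9, f10, f11, vb a5, vb c4, vb e4, vb d5.symm, vb e5.symm]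

/-- the window of the next letter is in the mask of the place -/
theorem msk_of {s : St} (h : OkSt s) {p : ℕ} (hp : p < 12) :
    (mskL.getD p 0).testBit (cw (s.2 (lseq s.1 p))) = true := by
  have key : ∀ j : Fin 6, (mskL.getD (2 * j.val) 0).testBit (cw (s.2 (s.1 j).1)) = true ∧
      (mskL.getD (2 * j.val + 1) 0).testBit (cw (s.2 (s.1 j).2)) = true := by
    intro j
    obtain ⟨-, h1, h2, -⟩ := h.2 j
    exact ⟨inn_msk j (s.2 (s.1 j).1).1 ⟨_, Nat.lt_succ_of_le (h.1 _)⟩ h1,
      out_msk j (s.2 (s.1 j).2).1 ⟨_, Nat.lt_succ_of_le (h.1 _)⟩ h2⟩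
  have k0 := key 0
  have k1 := key 1
  have k2 := key 2
  have k3 := key 3
  have k4 := key 4
  have k5 := key 5
  interval_cases p
  exacts [k0.1, k0.2, k1.1, k1.2, k2.1, k2.2, k3.1, k3.2, k4.1, k4.2, k5.1, k5.2]

theorem all6_spec {f : ℕ → Bool} (h : all6 f = true) (v : Fin 6) : f v.val = true := by
  unfold all6 at h
  simp only [Bool.and_eq_true] at h
  obtain ⟨h0, h1, h2, h3, h4, h5⟩ := h
  fin_cases v
  exacts [h0, h1, h2, h3, h4, h5]

/-- the windows are in the masks -/
def Ms (s : St) (m : List ℕ) : Prop :=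
  m.length = 6 ∧ ∀ v : Fin 6, (m.getD v.val 0).testBit (cw (s.2 v)) = true

theorem cw_lt {s : St} (h : OkSt s) (v : Fin 6) : cw (s.2 v) < 24 := by
  have h1 := h.1 v
  have h2 := ZMod.val_lt (s.2 v).1
  unfold cw
  omega

theorem Ms.set {s : St} {m : List ℕ} (h : Ms s m) {k : ℕ} (v : Fin 6)
    (hk : k.testBit (cw (s.2 v)) = true) : Ms s (m.set v.val (Nat.land (m.getD v.val 0) k)) := by
  refine ⟨by rw [List.length_set]; exact h.1, fun v' => ?_⟩
  rw [List.getD_eq_getElem?_getD, List.getElem?_set]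
  by_cases e : v.val = v'.val
  · have hv : v.val < m.length := by rw [h.1]; exact v.isLt
    rw [if_pos e, if_pos hv]
    have e' : v = v' := Fin.ext e
    subst e'
    show ((m.getD v.val 0) &&& k).testBit (cw (s.2 v)) = true
    rw [Nat.testBit_and, h.2 v, hk]
    rfl
  · rw [if_neg e, ← List.getD_eq_getElem?_getD]
    exact h.2 v'

theorem mem_spec {L : List ℕ} {x : ℕ} (h : mem L x = true) : x ∈ L := by
  unfold mem at h
  obtain ⟨c, hc, he⟩ := List.any_eq_true.1 h
  rw [← Nat.eq_of_beq_eq_true he]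
  exact hc

/-- a covering choice of windows is found -/
theorem canCov_of : ∀ (m b : List ℕ) (c : ℕ),
    List.Forall₂ (fun x y => y < 24 ∧ x.testBit y = true) m b →
    b.foldl (fun c y => c ||| cvL.getD y 0) c = 63 → canCov m c = true := by
  intro m
  induction m with
  | nil =>
    intro b c hb h
    cases hb
    have h' : c = 63 := h
    rw [h']
    rfl
  | cons x m ih =>
    intro b c hb h
    cases hb with
    | cons h1 h2 =>
      rename_i y b
      show ((List.range 24).any fun b =>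
        Nat.testBit x b && canCov m (Nat.lor c (cvL.getD b 0))) = true
      refine List.any_eq_true.2 ⟨y, List.mem_range.2 h1.1, ?_⟩
      rw [h1.2]
      exact ih b _ h2 h

/-- the leaves -/
theorem leaf_spec {s : St} (h : OkSt s) (hc : Cov s.2) {m g : List ℕ} (hm : Ms s m)
    (hl : leaf g m = true) : cd g ∈ L309 := by
  unfold leaf at hl
  rw [force_eq] at hl
  rcases Bool.or_eq_true_iff.1 hl with h1 | h1
  · exfalso
    obtain ⟨k, hk, h2⟩ := List.any_eq_true.1 h1
    have h3 : ∀ v : Fin 6, Nat.land (m.getD v.val 0) k = 0 := by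
      intro v
      have hv : v.val < m.length := by rw [hm.1]; exact v.isLt
      have h4 := List.all_eq_true.1 h2 (m.getD v.val 0) (by
        rw [List.getD_eq_getElem _ _ hv]
        exact List.getElem_mem hv)
      exact Nat.eq_of_beq_eq_true h4
    obtain ⟨κ, hκ⟩ : ∃ κ : ZMod 6, k = covL.getD κ.val 0 := by
      have : ∀ k ∈ covL, ∃ κ : ZMod 6, k = covL.getD κ.val 0 := by decide
      exact this k hk
    obtain ⟨i, hi⟩ := hc κ
    have h5 := cov_msk κ (s.2 i).1 ⟨_, Nat.lt_succ_of_le (h.1 i)⟩ hi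
    have h6 : ((m.getD i.val 0) &&& k).testBit (cw (s.2 i)) = true := by
      rw [Nat.testBit_and, hm.2 i, hκ]
      exact h5
    rw [show (m.getD i.val 0) &&& k = 0 from h3 i, Nat.zero_testBit] at h6
    cases h6
  · rcases Bool.or_eq_true_iff.1 h1 with h2 | h2
    · exact mem_spec h2
    · exfalso
      have h3 : canCov m 0 = true := by
        obtain ⟨hl6, hb⟩ := hm
        obtain ⟨m0, m1, m2, m3, m4, m5, rfl⟩ : ∃ m0 m1 m2 m3 m4 m5, m = [m0, m1, m2, m3, m4, m5] := by
          match m, hl6 with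
          | [m0, m1, m2, m3, m4, m5], _ => exact ⟨m0, m1, m2, m3, m4, m5, rfl⟩
        refine canCov_of _ [cw (s.2 0), cw (s.2 1), cw (s.2 2), cw (s.2 3), cw (s.2 4), cw (s.2 5)]
          0 ?_ ?_
        · exact .cons ⟨cw_lt h 0, hb 0⟩ (.cons ⟨cw_lt h 1, hb 1⟩ (.cons ⟨cw_lt h 2, hb 2⟩
            (.cons ⟨cw_lt h 3, hb 3⟩ (.cons ⟨cw_lt h 4, hb 4⟩ (.cons ⟨cw_lt h 5, hb 5⟩ .nil)))))
        · have hlt : ∀ i, cvL.getD (cw (s.2 i)) 0 < 2 ^ 6 := fun i => cv_lt ⟨_, cw_lt h i⟩
          show ((((((0 ||| cvL.getD (cw (s.2 0)) 0) ||| cvL.getD (cw (s.2 1)) 0) |||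
            cvL.getD (cw (s.2 2)) 0) ||| cvL.getD (cw (s.2 3)) 0) ||| cvL.getD (cw (s.2 4)) 0) |||
            cvL.getD (cw (s.2 5)) 0) = 63
          have hbit : ∀ κ : ZMod 6, ∃ i, (cvL.getD (cw (s.2 i)) 0).testBit κ.val = true := by
            intro κ
            obtain ⟨i, hi⟩ := hc κ
            exact ⟨i, cv_msk κ (s.2 i).1 ⟨_, Nat.lt_succ_of_le (h.1 i)⟩ hi⟩
          apply Nat.eq_of_testBit_eq
          intro n
          simp only [Nat.testBit_or, Nat.zero_testBit, Bool.false_or]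
          by_cases hn : n < 6
          · have e63 : Nat.testBit 63 n = true := by
              interval_cases n <;> rfl
            rw [e63]
            obtain ⟨i, hi⟩ := hbit (n : ZMod 6)
            rw [ZMod.val_natCast_of_lt hn] at hi
            fin_cases i <;> simp_all
          · have e63 : Nat.testBit 63 n = false :=
              Nat.testBit_lt_two_pow (lt_of_lt_of_le (by norm_num : 63 < 2 ^ 6)
                (Nat.pow_le_pow_right (by norm_num) (not_lt.1 hn)))
            have hz : ∀ i, (cvL.getD (cw (s.2 i)) 0).testBit n = false := fun i =>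
              Nat.testBit_lt_two_pow (lt_of_lt_of_le (hlt i)
                (Nat.pow_le_pow_right (by norm_num) (not_lt.1 hn)))
            rw [e63, hz, hz, hz, hz, hz, hz]
            rfl
      rw [h3] at h2
      cases h2

/-- **Soundness of the search** -/
theorem go_spec {s : St} (h : OkSt s) (hc : Cov s.2) (hR : RG s.1) : ∀ (k p : ℕ) (m : List ℕ),
    p + k = 12 → Ms s m → go k (pre (ltr s.1) p) m (used (lseq s.1) p) = true →
    cd (pre (ltr s.1) 12) ∈ L309 := by
  intro k
  induction k with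
  | zero =>
    intro p m hp hm hg
    have e : p = 12 := by omega
    subst e
    exact leaf_spec h hc hm hg
  | succ k ih =>
    intro p m hp hm hg
    have e : Nat.sub 11 k = p := by
      show 11 - k = p
      omega
    have hg' : (all6 fun v => Nat.ble (Nat.add (used (lseq s.1) p) 1) v ||
      (bad (Nat.sub 11 k) (pre (ltr s.1) p) v ||
        force (Nat.land (m.getD v 0) (mskL.getD (Nat.sub 11 k) 0)) fun x => Nat.beq x 0 ||
          force (Nat.add (used (lseq s.1) p) (Nat.sub (Nat.add v 1) (used (lseq s.1) p)))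
            fun u' => go k (v :: pre (ltr s.1) p) (m.set v x) u')) = true := hg
    have h1 := all6_spec hg' (lseq s.1 p)
    have hp12 : p < 12 := by omega
    rw [e] at h1
    have hv := hR p hp12
    have n1 : Nat.ble (Nat.add (used (lseq s.1) p) 1) (lseq s.1 p).val = false := by
      rw [← Bool.not_eq_true]
      intro hb
      have := Nat.le_of_ble_eq_true hb
      have h' : used (lseq s.1) p + 1 ≤ (lseq s.1 p).val := this
      omega
    have n2 : bad p (pre (ltr s.1) p) (lseq s.1 p).val = false := bad_false h p hp12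
    simp only [n1, n2, Bool.false_or, force_eq] at h1
    have hk := msk_of h hp12
    have n3 : Nat.beq (Nat.land (m.getD (lseq s.1 p).val 0) (mskL.getD p 0)) 0 = false := by
      rw [← Bool.not_eq_true]
      intro hb
      have h2 : ((m.getD (lseq s.1 p).val 0) &&& (mskL.getD p 0)) = 0 := Nat.eq_of_beq_eq_true hb
      have h3 : ((m.getD (lseq s.1 p).val 0) &&& (mskL.getD p 0)).testBit
          (cw (s.2 (lseq s.1 p))) = true := by
        rw [Nat.testBit_and, hm.2, hk]
        rfl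
      rw [h2, Nat.zero_testBit] at h3
      cases h3
    rw [n3, Bool.false_or] at h1
    have e2 : Nat.add (used (lseq s.1) p) (Nat.sub (Nat.add (lseq s.1 p).val 1)
        (used (lseq s.1) p)) = used (lseq s.1) (p + 1) := by
      rw [used_succ]
      show used (lseq s.1) p + ((lseq s.1 p).val + 1 - used (lseq s.1) p) = _
      omega
    rw [e2] at h1
    exact ih (p + 1) _ (by omega) (hm.set (lseq s.1 p) hk) h1

theorem Ms_full {s : St} (h : OkSt s) :
    Ms s [16777215, 16777215, 16777215, 16777215, 16777215, 16777215] := by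
  refine ⟨rfl, fun v => ?_⟩
  have e : ([16777215, 16777215, 16777215, 16777215, 16777215, 16777215].getD v.val 0) =
      2 ^ 24 - 1 := by
    fin_cases v <;> rfl
  rw [e, Nat.testBit_two_pow_sub_one]
  exact decide_eq_true (cw_lt h v)

/-- the code of a valid column in restricted growth form -/
theorem code_mem {s : St} (h : OkSt s) (hc : Cov s.2) (hR : RG s.1) :
    cd (pre (ltr s.1) 12) ∈ L309 := by
  refine go_spec h hc hR 12 0 _ rfl (Ms_full h) ?_
  have e : used (lseq s.1) 0 = 0 := rfl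
  rw [e]
  exact go_true

/-! ### the 57 classes -/

/-- the digit `p` of a code of twelve digits -/
def dg (c p : ℕ) : ℕ := c / 10 ^ (11 - p) % 10

theorem dg_cd {f : ℕ → ℕ} (hf : ∀ p, f p < 10) : ∀ p < 12, dg (cd (pre f 12)) p = f p := by
  have e : cd (pre f 12) = 10 * (10 * (10 * (10 * (10 * (10 * (10 * (10 * (10 * (10 * (10 *
      (10 * 0 + f 0) + f 1) + f 2) + f 3) + f 4) + f 5) + f 6) + f 7) + f 8) + f 9) + f 10) +
      f 11 := rfl
  have h0 := hf 0
  have h1 := hf 1
  have h2 := hf 2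
  have h3 := hf 3
  have h4 := hf 4
  have h5 := hf 5
  have h6 := hf 6
  have h7 := hf 7
  have h8 := hf 8
  have h9 := hf 9
  have h10 := hf 10
  have h11 := hf 11
  intro p hp
  unfold dg
  rw [e]
  interval_cases p <;> norm_num <;> omega

/-- the digit `i` of a renaming -/
def sg (σ i : ℕ) : ℕ := σ / 10 ^ (5 - i) % 10

/-- the check of a row of the table `TR` -/
def okT (t : ℕ × ℕ × ℕ × ℕ) : Bool :=
  Nat.blt t.2.1 6 && (mem L57 t.2.2.2 &&
    (((List.range 6).all fun i => Nat.blt (sg t.2.2.1 i) 6) &&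
    (((List.range 6).all fun i => (List.range 6).all fun j =>
      Nat.beq i j || !(Nat.beq (sg t.2.2.1 i) (sg t.2.2.1 j))) &&
    ((List.range 12).all fun p =>
      Nat.beq (dg t.2.2.2 p) (sg t.2.2.1 (dg t.1 ((p + 2 * t.2.1) % 12)))))))

theorem tr_ok : TR.all okT = true := by decide +kernel

theorem tr_fst : (TR.map Prod.fst) = L309 := by decide +kernel

theorem lseq_shift (s : St) : ∀ p < 12, lseq (H429.shift s).1 p = lseq s.1 ((p + 2) % 12) := by
  intro p hp
  interval_cases p <;> rfl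

theorem lseq_iter (s : St) (r : ℕ) : ∀ p < 12,
    lseq (H429.shift^[r] s).1 p = lseq s.1 ((p + 2 * r) % 12) := by
  induction r with
  | zero => intro p hp; rw [Nat.mul_zero, Nat.add_zero, Nat.mod_eq_of_lt hp]; rfl
  | succ r ih =>
    intro p hp
    rw [Function.iterate_succ_apply', lseq_shift _ p hp, ih _ (Nat.mod_lt _ (by norm_num))]
    congr 1
    omega

/-- the column is the column with the code `c` -/
def IsCol (g : Cl) (c : ℕ) : Prop := ∀ p < 12, (lseq g p).val = dg c p

/-- the column, written with the slots -/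
theorem IsCol.slot {g : Cl} {c : ℕ} (h : IsCol g c) (j : Fin 6) :
    (g j).1.val = dg c (2 * j.val) ∧ (g j).2.val = dg c (2 * j.val + 1) := by
  have h0 := h 0 (by norm_num)
  have h1 := h 1 (by norm_num)
  have h2 := h 2 (by norm_num)
  have h3 := h 3 (by norm_num)
  have h4 := h 4 (by norm_num)
  have h5 := h 5 (by norm_num)
  have h6 := h 6 (by norm_num)
  have h7 := h 7 (by norm_num)
  have h8 := h 8 (by norm_num)
  have h9 := h 9 (by norm_num)
  have h10 := h 10 (by norm_num)
  have h11 := h 11 (by norm_num)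
  fin_cases j
  exacts [⟨h0, h1⟩, ⟨h2, h3⟩, ⟨h4, h5⟩, ⟨h6, h7⟩, ⟨h8, h9⟩, ⟨h10, h11⟩]

/-- the columns in restricted growth form -/
theorem cols309 {s : St} (h : OkSt s) (hc : Cov s.2) (hR : RG s.1) : ∃ c ∈ L309, IsCol s.1 c :=
  ⟨_, code_mem h hc hR, fun p hp => (dg_cd (fun q => lt_trans (lseq s.1 q).isLt (by norm_num)) p
    hp).symm⟩

/-- **The columns of a centre with windows**: every valid state with covered rays has one of 57
columns after a renaming of the colours and a turn. -/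
theorem cols57 {s : St} (h : OkSt s) (hc : Cov s.2) : ∃ (σ : Equiv.Perm (Fin 6)) (r : ℕ), r < 6 ∧
    ∃ c ∈ L57, IsCol (prm σ (H429.shift^[r] s)).1 c := by
  obtain ⟨τ, hτ⟩ := exists_RG s
  obtain ⟨c0, hc0, hs0⟩ := cols309 (okSt_prm (σ := τ) h) (cov_prm (σ := τ) hc) hτ
  rw [← tr_fst] at hc0
  obtain ⟨⟨c1, r, sgm, c⟩, ht, e1⟩ := List.mem_map.1 hc0
  have e1' : c1 = c0 := e1
  subst e1'
  have hok := List.all_eq_true.1 tr_ok _ ht
  unfold okT at hok
  simp only [Bool.and_eq_true] at hok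
  obtain ⟨k1, k2, k3, k4, k5⟩ := hok
  have hr : r < 6 := Eq.mp Nat.blt_eq k1
  have hlt : ∀ i : Fin 6, sg sgm i.val < 6 := fun i =>
    Eq.mp Nat.blt_eq (List.all_eq_true.1 k3 i.val (List.mem_range.2 i.isLt))
  have hinj : Function.Injective (fun i : Fin 6 => (⟨sg sgm i.val, hlt i⟩ : Fin 6)) := by
    intro i j hij
    have h1 := List.all_eq_true.1 (List.all_eq_true.1 k4 i.val (List.mem_range.2 i.isLt)) j.val
      (List.mem_range.2 j.isLt)
    rcases Bool.or_eq_true_iff.1 h1 with h2 | h2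
    · exact Fin.ext (Nat.eq_of_beq_eq_true h2)
    · exfalso
      have h3 : sg sgm i.val = sg sgm j.val := congrArg Fin.val hij
      rw [h3, Nat.beq_refl] at h2
      cases h2
  let ρ : Equiv.Perm (Fin 6) := Equiv.ofBijective _ (Finite.injective_iff_bijective.1 hinj)
  have hρ : ∀ i : Fin 6, (ρ i).val = sg sgm i.val := fun i => rfl
  refine ⟨ρ * τ, r, hr, c, mem_spec k2, fun p hp => ?_⟩
  have hsh : ∀ (k : ℕ) (σ : Equiv.Perm (Fin 6)) (s : St),
      H429.shift^[k] (prm σ s) = prm σ (H429.shift^[k] s) := by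
    intro k σ s
    induction k with
    | zero => rfl
    | succ k ih => rw [Function.iterate_succ_apply', Function.iterate_succ_apply', ih, shift_prm]
  rw [prm_mul, ← hsh, lseq_prm, hρ, lseq_iter _ _ p hp, hs0 _ (Nat.mod_lt _ (by norm_num))]
  exact (Nat.eq_of_beq_eq_true (List.all_eq_true.1 k5 p (List.mem_range.2 hp))).symm

end Vale.Agent.P032.H623
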