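import Vale.Agent.P032.H623.Cols
import Vale.Agent.P032.H623.NsIff

/-!
# P032: the pairs with a swap or a six conveyor: without loss of generality

`bridge_of` : if for every column `c` of the list `L57` the steps from `c` which are not `NsC` end in
a column of a list `lst c`, and all these pairs of columns have a property `K` which does not depend
on the names of the colours and on the turn, then every step which is not `NsC` has the property `K`.
-/

open Set

noncomputable section

namespace Vale.Agent.P032.H623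

open Vale.Agent.P032.Six Vale.Agent.P032.H429 Vale.Agent.P032.H158 Vale.Agent.P032.H728

/-- no further relation -/
def Et : St → St → Prop := fun _ _ => True

theorem et_prm : PrmInv Et := fun _ _ _ _ => trivial
theorem et_turn : TurnInv Et := fun _ _ _ => trivial

theorem okC_et {E : St → St → Prop} {s : St} (h : OkC All E s) : OkC All Et s :=
  ⟨h.ok, h.cov, h.xc, trivial⟩

/-- forget the further relation -/
theorem stepC_et {E : St → St → Prop} {s s' : St} (h : StepC All E s s') : StepC All Et s s' :=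
  ⟨okC_et h.ok, okC_et h.ok', h.win, h.xc, trivial⟩

theorem stepC_shifts {s s' : St} (h : StepC All Et s s') (k : ℕ) :
    StepC All Et (H429.shift^[k] s) (H429.shift^[k] s') := by
  induction k with
  | zero => exact h
  | succ k ih =>
    rw [Function.iterate_succ_apply', Function.iterate_succ_apply']
    exact stepC_shift et_turn ih

theorem ens_shifts {s s' : St} (h : Ens s s') (k : ℕ) :
    Ens (H429.shift^[k] s) (H429.shift^[k] s') := by
  induction k with
  | zero => exact h
  | succ k ih =>
    rw [Function.iterate_succ_apply', Function.iterate_succ_apply']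
    exact ens_turn _ _ ih

theorem shifts_six (k : ℕ) (hk : k < 6) (s : St) : H429.shift^[6 - k] (H429.shift^[k] s) = s := by
  rw [← Function.iterate_add_apply, show 6 - k + k = 6 by omega]
  exact shift_six s

/-- back from the renamed and turned pair -/
theorem ens_back {σ : Equiv.Perm (Fin 6)} {k : ℕ} (hk : k < 6) {s s' : St}
    (h : Ens (prm σ (H429.shift^[k] s)) (prm σ (H429.shift^[k] s'))) : Ens s s' := by
  have h1 := ens_prm σ⁻¹ _ _ h
  rw [← prm_mul, ← prm_mul, inv_mul_cancel, prm_one, prm_one] at h1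
  have h2 := ens_shifts h1 (6 - k)
  rw [shifts_six k hk, shifts_six k hk] at h2
  exact h2

/-- **Without loss of generality the first column is one of the 57.** -/
theorem bridge_of {lst : ℕ → List ℕ} {K : Cl → Cl → Prop}
    (hK : ∀ (σ : Equiv.Perm (Fin 6)) (k : ℕ) (s s' : St), k < 6 →
      K (prm σ (H429.shift^[k] s)).1 (prm σ (H429.shift^[k] s')).1 → K s.1 s'.1)
    (hS : ∀ c ∈ L57, ∀ s s', StepC All Et s s' → IsCol s.1 c → ¬ NsC s.1 s'.1 →
      ∃ q ∈ lst c, IsCol s'.1 q)
    (hW : ∀ c ∈ L57, ∀ q ∈ lst c, ∀ g g' : Cl, IsCol g c → IsCol g' q → K g g')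
    {E : St → St → Prop} {s s' : St} (h : StepC All E s s') (hn : ¬ K s.1 s'.1) :
    NsC s.1 s'.1 := by
  by_contra hns
  have h0 := stepC_et h
  obtain ⟨σ, k, hk, c, hc, hcol⟩ := cols57 h0.ok.ok h0.ok.cov
  have h1 : StepC All Et (prm σ (H429.shift^[k] s)) (prm σ (H429.shift^[k] s')) :=
    stepC_prm et_prm (stepC_shifts h0 k)
  have h2 : ¬ NsC (prm σ (H429.shift^[k] s)).1 (prm σ (H429.shift^[k] s')).1 :=
    fun he => hns (ens_back hk he)
  obtain ⟨q, hq, hqc⟩ := hS c hc _ _ h1 hcol h2
  exact hn (hK σ k s s' hk (hW c hc q hq _ _ hcol hqc))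

/-- the letters of a renamed and turned column -/
theorem shifts_fst (k : ℕ) (s : St) (j : Fin 6) :
    (H429.shift^[k] s).1 j = s.1 (j + Fin.ofNat 6 k) := by
  induction k generalizing j with
  | zero =>
    have e : ∀ j : Fin 6, j + Fin.ofNat 6 0 = j := by decide
    rw [e]
    rfl
  | succ k ih =>
    rw [Function.iterate_succ_apply']
    show (H429.shift^[k] s).1 (j + 1) = _
    rw [ih]
    refine congrArg s.1 (Fin.ext ?_)
    show ((j.val + 1) % 6 + k % 6) % 6 = (j.val + (k + 1) % 6) % 6
    omega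

/-- **The invariance of a family of the form `∃ σ r, a = σ p turned by r`.** -/
theorem col_back {σ τ : Equiv.Perm (Fin 6)} {k : ℕ} {r : Fin 6} {s : St} {c : Cl}
    (h : (prm σ (H429.shift^[k] s)).1 = fun j => (τ (c (j + r)).1, τ (c (j + r)).2)) :
    s.1 = fun j => ((σ⁻¹ * τ) (c (j + (r - Fin.ofNat 6 k))).1,
      (σ⁻¹ * τ) (c (j + (r - Fin.ofNat 6 k))).2) := by
  funext j
  have h1 := congrFun h (j - Fin.ofNat 6 k)
  have h2 : (σ ((H429.shift^[k] s).1 (j - Fin.ofNat 6 k)).1,
      σ ((H429.shift^[k] s).1 (j - Fin.ofNat 6 k)).2) =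
      (τ (c (j - Fin.ofNat 6 k + r)).1, τ (c (j - Fin.ofNat 6 k + r)).2) := h1
  rw [shifts_fst, sub_add_cancel] at h2
  have e : j - Fin.ofNat 6 k + r = j + (r - Fin.ofNat 6 k) := by
    rw [sub_add_eq_add_sub, add_sub_assoc]
  rw [e] at h2
  obtain ⟨h3, h4⟩ := Prod.mk.inj h2
  refine Prod.ext ?_ ?_
  · show (s.1 j).1 = (σ⁻¹ * τ) (c (j + (r - Fin.ofNat 6 k))).1
    rw [Equiv.Perm.mul_apply, ← h3]
    exact (σ.symm_apply_apply _).symm
  · show (s.1 j).2 = (σ⁻¹ * τ) (c (j + (r - Fin.ofNat 6 k))).2
    rw [Equiv.Perm.mul_apply, ← h4]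
    exact (σ.symm_apply_apply _).symm

end Vale.Agent.P032.H623
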